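import Vale.Agent.P310.MainTM

namespace Vale.Agent.Results.P310.B_tm

open Vale.Agent.P310 Filter Asymptotics

theorem result :
    (∃ c : ℝ, 0 < c ∧ ∃ k₀ : ℕ, ∀ k ≥ k₀, ∀ A : TM, A.DecidesWL k →
      ∀ᶠ n : ℕ in atTop, (n : ℝ) ^ (c * k) ≤ (A.worst n : ℝ)) ∧
    ¬ ∃ g : ℕ → ℝ, (g =o[atTop] fun k : ℕ => (k : ℝ)) ∧ ∀ k ≥ 2, ∃ A : TM, A.DecidesWL k ∧
      (fun n : ℕ => (A.worst n : ℝ)) =O[atTop] fun n : ℕ => (n : ℝ) ^ g k :=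
  ⟨⟨1 / 100, by norm_num, 100, fun _ hk A h => tm_lower hk A h⟩,
    no_little_o TM.DecidesWL TM.worst (c := 1 / 100) (by norm_num) 100
      fun _ hk A h => tm_lower hk A h⟩

end Vale.Agent.Results.P310.B_tm
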